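import Vale.Agent.Lib.P112.Focus

namespace Vale.Agent.Results.P112.TruncationSharp

open Vale.Agent.Lib.P112
open MeasureTheory Filter Topology SchwartzMap
open scoped ENNReal NNReal

theorem abs_coord_le_norm (x : E2) : |x 0| ≤ ‖x‖ := by
  have h := norm_sq_eq x
  exact abs_le_of_sq_le_sq (by nlinarith [sq_nonneg (x 1)]) (norm_nonneg _)

/-- Stein's uniform weak-type `(2,2)` estimate fails for every truncation length `a₀ > 1`. -/
theorem result : ∀ a₀ : ℝ, 1 < a₀ → ¬ SteinEstimate a₀ := by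
  rintro a₀ ha ⟨C, hC⟩
  set c : E2 := !₂[(1 + a₀) / 2, 0] with hc
  set ρ : ℝ := (a₀ - 1) / 2 with hρ
  have hρ0 : 0 < ρ := by rw [hρ]; linarith
  have hcn : ‖c‖ = (1 + a₀) / 2 := by
    have h := norm_sq_eq c
    have h0 : c 0 = (1 + a₀) / 2 := by simp [hc]
    have h1 : c 1 = 0 := by simp [hc]
    rw [h0, h1] at h
    have h2 : ‖c‖ ^ 2 = ((1 + a₀) / 2) ^ 2 := by rw [h]; ring
    exact (pow_left_inj₀ (norm_nonneg _) (by linarith) (by norm_num)).1 h2
  have hball : ∀ x ∈ Metric.ball c ρ, 1 ≤ x 0 ∧ ‖x‖ < a₀ := by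
    intro x hx
    rw [mem_ball_iff_norm] at hx
    constructor
    · have h1 := abs_coord_le_norm (x - c)
      have h2 : (x - c) 0 = x 0 - (1 + a₀) / 2 := by simp [hc]
      rw [h2, abs_le] at h1
      rw [hρ] at hx
      linarith [h1.1]
    · have h1 : ‖x‖ ≤ ‖c‖ + ‖x - c‖ := by
        have := norm_add_le c (x - c)
        simpa using this
      rw [hcn] at h1
      rw [hρ] at hx
      linarith
  set m : ℝ≥0∞ := volume (Metric.ball c ρ) with hm
  set V : ℝ≥0∞ := volume (Metric.ball (0 : E2) 1) with hV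
  have hm0 : m ≠ 0 := (Metric.measure_ball_pos volume c hρ0).ne'
  have hVtop : V ≠ ∞ := measure_ball_lt_top.ne
  set K : ℝ≥0∞ := C * ENNReal.ofReal ((64 * a₀) ^ 2) * V with hK
  have hKtop : K ≠ ∞ :=
    ENNReal.mul_ne_top (ENNReal.mul_ne_top ENNReal.coe_ne_top ENNReal.ofReal_ne_top) hVtop
  obtain ⟨N, hN⟩ := ENNReal.exists_nat_mul_gt hm0 hKtop
  have hN0 : 0 < N := by
    rcases Nat.eq_zero_or_pos N with h | h
    · subst h; simp at hN
    · exact h
  have hNr : (0 : ℝ) < N := by exact_mod_cast hN0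
  set l : ℝ := N / (64 * a₀) with hl
  have hl0 : 0 < l := by rw [hl]; positivity
  have h1 := hC focus norm_focus lipschitz_focus (testFun N) l hl0
  have hsub : Metric.ball c ρ ⊆ {x : E2 | l < ‖dirH focus a₀ (testFun N) x‖} := by
    intro x hx
    obtain ⟨hx0, hxa⟩ := hball x hx
    have h2 := norm_dirH_testFun_ge N hx0 hxa
    show l < _
    refine lt_of_lt_of_le ?_ h2
    rw [hl]
    have : (0 : ℝ) < a₀ := by linarith
    apply div_lt_div_of_pos_left hNr (by positivity)
    linarith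
  have h3 : m ≤ C * ENNReal.ofReal (l ^ (-2 : ℤ)) * (N * V) :=
    ((measure_mono hsub).trans h1).trans (by gcongr; exact eLpNorm_testFun_sq_le N)
  have h4 : (N : ℝ≥0∞) * m ≤ K := by
    calc (N : ℝ≥0∞) * m ≤ N * (C * ENNReal.ofReal (l ^ (-2 : ℤ)) * (N * V)) := by gcongr
      _ = C * (ENNReal.ofReal N * ENNReal.ofReal (l ^ (-2 : ℤ)) * ENNReal.ofReal N) * V := by
          rw [ENNReal.ofReal_natCast]; ring
      _ = K := by
          rw [← ENNReal.ofReal_mul hNr.le, ← ENNReal.ofReal_mul (by positivity), hK]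
          congr 3
          have : (0 : ℝ) < a₀ := by linarith
          rw [hl, zpow_neg]
          field_simp
  exact absurd hN (not_lt.2 h4)

end Vale.Agent.Results.P112.TruncationSharp
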